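import Mathlib

/-!
# Words on a circle with marks (ties) which are passed at most once in a window of length one

`H v h`: `h` is a legal selection at the (generic) time `v`; `B u g`: the word `g` is below the palettes at
the time `u`; `Tie c u`: a tie of the class `c` at the time `u`; `φ h g S`: the word `g` can be reached from
`h` by moves below palettes and by ties of classes in `S`, every class at most once.
-/

open Set Filter Topology

namespace Vale.Agent.P032.Words6.H503

theorem mark_false {W κ : Type*} {H : ℝ → W → Prop} {rot : W → W}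
    (dense : ∀ u, ∃ᶠ v in 𝓝 u, ∃ h, H v h)
    (hrot : ∀ v h, H v h → H (v + 1) (rot h))
    {Tie : κ → ℝ → Prop} (tie1 : ∀ c u u', Tie c u → Tie c u' → ∃ n : ℤ, u' = u + n)
    (gen : ∀ v h c, H v h → ¬ Tie c v)
    {B : ℝ → W → Prop} (near : ∀ u, ∀ᶠ v in 𝓝 u, ∀ g, H v g → B u g)
    {φ : W → W → Set κ → Prop}
    (refl : ∀ v h, H v h → φ h h ∅)
    (mono : ∀ h g S S', S ⊆ S' → φ h g S → φ h g S')
    (step : ∀ u g g', B u g → B u g' → ∀ h S, (∀ c ∈ S, ¬ Tie c u) → φ h g S →
      φ h g' (S ∪ {c | Tie c u}))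
    (no : ∀ v h S, H v h → ¬ φ h (rot h) S) : False := by
  obtain ⟨v0, h, hv0⟩ := (dense 0).exists
  set Sx : ℝ → Set κ := fun x => {c | ∃ t, v0 ≤ t ∧ t ≤ x ∧ Tie c t} with hSx
  set P : ℝ → Prop := fun x => ∀ w g, v0 ≤ w → w ≤ x → H w g → φ h g (Sx w) with hP
  set s : Set ℝ := {x | v0 ≤ x ∧ x ≤ v0 + 1 ∧ P x} with hs
  -- the start
  have hstart : v0 ∈ s := by
    refine ⟨le_rfl, by linarith, ?_⟩
    intro w g h1 h2 hg
    have hw : w = v0 := le_antisymm h2 h1
    subst hw
    have h3 := near w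
    have h4 := step w h g (h3.self_of_nhds h hv0) (h3.self_of_nhds g hg) h ∅
      (fun c hc => absurd hc (by simp)) (refl w h hv0)
    refine mono _ _ _ _ ?_ h4
    rintro c (hc | hc)
    · exact absurd hc (by simp)
    · exact ⟨w, le_rfl, le_rfl, hc⟩
  have hne : s.Nonempty := ⟨v0, hstart⟩
  have hbd : BddAbove s := ⟨v0 + 1, fun x hx => hx.2.1⟩
  set m := sSup s with hm
  have hm0 : v0 ≤ m := le_csSup hbd hstart
  have hm1 : m ≤ v0 + 1 := csSup_le hne fun x hx => hx.2.1
  obtain ⟨ε, hε, hε2⟩ := Metric.eventually_nhds_iff.1 (near m)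
  -- a generic time on the left of m (or v0 itself)
  have hleft : ∃ w0 g0, v0 ≤ w0 ∧ w0 ≤ m ∧ (w0 < m ∨ w0 = v0) ∧ |w0 - m| < ε ∧ H w0 g0 ∧
      φ h g0 (Sx w0) := by
    rcases eq_or_lt_of_le hm0 with h1 | h1
    · refine ⟨v0, h, le_rfl, hm0, Or.inr rfl, by rw [← h1]; simpa using hε, hv0, ?_⟩
      exact hstart.2.2 v0 h le_rfl le_rfl hv0
    · obtain ⟨x1, hx1, hx2⟩ := exists_lt_of_lt_csSup hne
        (show max v0 (m - ε) < sSup s from max_lt h1 (by linarith))
      have hx1m : x1 ≤ m := le_csSup hbd hx1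
      set y := (max v0 (m - ε) + x1) / 2 with hy
      have hy1 : max v0 (m - ε) < y := by rw [hy]; linarith
      have hy2 : y < x1 := by rw [hy]; linarith
      obtain ⟨w0, ⟨g0, hg0⟩, hw0⟩ := ((dense y).and_eventually (Ioo_mem_nhds hy1 hy2)).exists
      have k1 : v0 < w0 := lt_of_le_of_lt (le_max_left _ _) hw0.1
      have k2 : m - ε < w0 := lt_of_le_of_lt (le_max_right _ _) hw0.1
      refine ⟨w0, g0, k1.le, by linarith [hw0.2], Or.inl (by linarith [hw0.2]), ?_, hg0,
        hx1.2.2 w0 g0 k1.le hw0.2.le hg0⟩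
      rw [abs_lt]
      constructor <;> linarith [hw0.2]
  obtain ⟨w0, g0, a1, a2, a3, a4, a5, a6⟩ := hleft
  -- no class of the left part has a tie at m
  have hdis : ∀ c ∈ Sx w0, ¬ Tie c m := by
    rintro c ⟨t, t1, t2, t3⟩ hc
    obtain ⟨n, hn⟩ := tie1 c t m t3 hc
    have htm : t ≤ m := t2.trans a2
    rcases eq_or_lt_of_le htm with h1 | h1
    · rcases a3 with h2 | h2
      · linarith
      · have : t = v0 := le_antisymm (h2 ▸ t2) t1
        exact gen v0 h c hv0 (this ▸ t3)
    · have h2 : (0 : ℝ) < n := by linarith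
      have h3 : (1 : ℤ) ≤ n := by
        have : (0 : ℤ) < n := by exact_mod_cast h2
        omega
      have h4 : (1 : ℝ) ≤ n := by exact_mod_cast h3
      have h5 : t = v0 := by linarith
      exact gen v0 h c hv0 (h5 ▸ t3)
  -- everything on the right of m, near m
  have hright : ∀ w g, m ≤ w → w < m + ε → H w g → φ h g (Sx w) := by
    intro w g h1 h2 hg
    have b1 : B m g0 := hε2 (by rw [Real.dist_eq]; exact a4) g0 a5
    have b2 : B m g := hε2 (by rw [Real.dist_eq, abs_lt]; constructor <;> linarith) g hg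
    refine mono _ _ _ _ ?_ (step m g0 g b1 b2 h (Sx w0) hdis a6)
    rintro c (⟨t, t1, t2, t3⟩ | hc)
    · exact ⟨t, t1, t2.trans (a2.trans h1), t3⟩
    · exact ⟨m, hm0, h1, hc⟩
  have hPm : ∀ x, m ≤ x → x < m + ε → P x := by
    intro x h1 h2 w g h3 h4 hg
    rcases lt_or_ge w m with h5 | h5
    · obtain ⟨x1, hx1, hx2⟩ := exists_lt_of_lt_csSup hne h5
      exact hx1.2.2 w g h3 hx2.le hg
    · exact hright w g h5 (by linarith) hg
  have hend : m = v0 + 1 := by
    by_contra hcon
    have h1 : m < v0 + 1 := lt_of_le_of_ne hm1 hcon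
    set x := min (m + ε / 2) (v0 + 1) with hx
    have h2 : m < x := lt_min (by linarith) h1
    have h3 : x < m + ε := lt_of_le_of_lt (min_le_left _ _) (by linarith)
    have h4 : x ∈ s := ⟨hm0.trans h2.le, min_le_right _ _, hPm x h2.le h3⟩
    exact absurd (le_csSup hbd h4) (not_le.2 h2)
  have hfin := hPm m le_rfl (by linarith) (v0 + 1) (rot h) (by linarith) hend.ge (hrot v0 h hv0)
  exact no v0 h _ hv0 hfin

/-- the version without marks: a value which is constant below the palettes of every time and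
different for a word and its rotation -/
theorem box_false {W L : Type*} {H : ℝ → W → Prop} {rot : W → W}
    (dense : ∀ u, ∃ᶠ v in 𝓝 u, ∃ h, H v h)
    (hrot : ∀ v h, H v h → H (v + 1) (rot h))
    {B : ℝ → W → Prop} (near : ∀ u, ∀ᶠ v in 𝓝 u, ∀ g, H v g → B u g)
    {cmp : W → L} (step : ∀ u g g', B u g → B u g' → cmp g = cmp g')
    (no : ∀ v h, H v h → cmp (rot h) ≠ cmp h) : False := by
  refine mark_false (κ := Empty) dense hrot (Tie := fun _ _ => False)
    (fun c => c.elim) (fun _ _ c => c.elim) near (φ := fun h g _ => cmp g = cmp h)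
    (fun _ _ _ => rfl) (fun _ _ _ _ _ h => h) ?_ ?_
  · intro u g g' h1 h2 h S _ h3
    rw [← step u g g' h1 h2, h3]
  · intro v h S hv hh
    exact no v h hv hh

end Vale.Agent.P032.Words6.H503
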