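import Vale.Agent.P032.S5.H767.Raw
import Vale.Agent.P032.Words6.H503.Mark

/-!
# Complementary classes on a circle: the three modes, ties have period one
-/

open Set

noncomputable section

namespace Vale.Agent.P032.Words6.H503

open Vale.Agent.P032.Six Vale.Agent.P032.S5.H767

theorem pt_eq_int {z : ℂ} {u v : ℝ} (h : pt z u = pt z v) : ∃ n : ℤ, v = u + 6 * n := by
  unfold pt cis at h
  have h1 := add_left_cancel h
  obtain ⟨n, hn⟩ := Complex.exp_eq_exp_iff_exists_int.1 h1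
  refine ⟨-n, ?_⟩
  have h2 : ((u * (Real.pi / 3) : ℝ) : ℂ) * Complex.I =
      (((v * (Real.pi / 3) : ℝ) : ℂ) + n * (2 * Real.pi)) * Complex.I := by rw [hn]; ring
  have h3 := mul_right_cancel₀ Complex.I_ne_zero h2
  have h4 : u * (Real.pi / 3) = v * (Real.pi / 3) + n * (2 * Real.pi) := by exact_mod_cast h3
  have hp := Real.pi_pos
  push_cast
  field_simp at h4
  linarith

variable {T : ℂ → Set (Fin 6)} {z : ℂ} {X : Set (Fin 6)}

/-- a tie of the class `{X, Xᶜ}` at the time `u` -/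
def Tie (T : ℂ → Set (Fin 6)) (z : ℂ) (X : Set (Fin 6)) (u : ℝ) : Prop :=
  ∃ k : ℤ, T (pt z (u + k)) = X ∧ T (pt z (u + k + 3)) = Xᶜ

/-- X-points and complementary points are antipodal -/
def RS (T : ℂ → Set (Fin 6)) (z : ℂ) (X : Set (Fin 6)) : Prop :=
  ∀ v q, dist v z = 1 → dist q z = 1 → T v = X → T q = Xᶜ → v + q = 2 * z

theorem tie_int (hR : RS T z X) {u u' : ℝ} (h1 : Tie T z X u) (h2 : Tie T z X u') :
    ∃ n : ℤ, u' = u + n := by
  obtain ⟨k, k1, -⟩ := h1
  obtain ⟨l, -, l2⟩ := h2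
  have h3 := hR _ _ (dist_pt z _) (dist_pt z _) k1 l2
  rw [pt_three] at h3
  have h4 : pt z (u + k) = pt z (u' + l) := by linear_combination h3
  obtain ⟨n, hn⟩ := pt_eq_int h4
  refine ⟨k - l + 6 * n, ?_⟩
  push_cast
  linarith

theorem tie_symm {u : ℝ} (h : Tie T z X u) : Tie T z Xᶜ u := by
  obtain ⟨k, k1, k2⟩ := h
  refine ⟨k + 3, ?_, ?_⟩
  · push_cast
    rw [show u + ((k : ℝ) + 3) = u + k + 3 by ring]
    exact k2
  · push_cast
    rw [show u + ((k : ℝ) + 3) + 3 = u + k + 6 by ring, pt_six, compl_compl]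
    exact k1

/-- **The three modes of a complementary class.** -/
theorem modes (hR : RS T z X) :
    (∀ q, dist q z = 1 → T q ≠ X) ∨ (∀ q, dist q z = 1 → T q ≠ Xᶜ) ∨
      ∃ y, dist y z = 1 ∧ (∀ q, dist q z = 1 → (T q = X ↔ q = y)) ∧
        ∀ q, dist q z = 1 → (T q = Xᶜ ↔ q = 2 * z - y) := by
  by_cases h1 : ∀ q, dist q z = 1 → T q ≠ X
  · exact Or.inl h1
  by_cases h2 : ∀ q, dist q z = 1 → T q ≠ Xᶜ
  · exact Or.inr (Or.inl h2)
  push Not at h1 h2
  obtain ⟨y, y1, y2⟩ := h1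
  obtain ⟨w, w1, w2⟩ := h2
  have h3 := hR y w y1 w1 y2 w2
  refine Or.inr (Or.inr ⟨y, y1, ?_, ?_⟩)
  · intro q hq
    constructor
    · intro h4
      have h5 := hR q w hq w1 h4 w2
      linear_combination h5 - h3
    · rintro rfl
      exact y2
  · intro q hq
    constructor
    · intro h4
      have h5 := hR y q y1 hq y2 h4
      linear_combination h5
    · rintro rfl
      rw [show 2 * z - y = w by linear_combination -h3]
      exact w2

/-- in the third mode every occurrence of `X` is a tie -/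
theorem tie_of (hy : ∃ y, dist y z = 1 ∧ (∀ q, dist q z = 1 → (T q = X ↔ q = y)) ∧
    ∀ q, dist q z = 1 → (T q = Xᶜ ↔ q = 2 * z - y)) {u : ℝ} {k : ℤ}
    (h : T (pt z (u + k)) = X ∨ T (pt z (u + k)) = Xᶜ) : Tie T z X u := by
  obtain ⟨y, -, y1, y2⟩ := hy
  rcases h with h | h
  · have h1 := (y1 _ (dist_pt z _)).1 h
    refine ⟨k, h, (y2 _ (dist_pt z _)).2 ?_⟩
    rw [pt_three, h1]
  · have h1 := (y2 _ (dist_pt z _)).1 h
    refine ⟨k + 3, (y1 _ (dist_pt z _)).2 ?_, ?_⟩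
    · push_cast
      rw [show u + ((k : ℝ) + 3) = u + k + 3 by ring, pt_three, h1]
      ring
    · push_cast
      rw [show u + ((k : ℝ) + 3) + 3 = u + k + 6 by ring, pt_six]
      exact h

end Vale.Agent.P032.Words6.H503
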