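import Vale.Agent.P032.Words.H151.Pal3
import Vale.Agent.P032.Words6.H503.Mark

/-!
# Box tables with ties and the engine on the circle, for words over the natural numbers
-/

open Set Filter Topology

namespace Vale.Agent.P032.Words6.H503

open Vale.Agent.P032.Words.Trie

/-- the rotated word -/
def rotN (h : ℕ → ℕ) : ℕ → ℕ := fun k => h ((k + 1) % 6)

theorem ties_lt {D : Dat} {J Rm : List (List ℕ)} {nl : ℕ} {T : Tr} (hc : chkQ D J Rm nl T = true)
    (t : ℕ → ℕ) : ties D t < 2 ^ D.r := by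
  unfold chkQ at hc
  obtain ⟨-, hc⟩ := cond_tt hc
  obtain ⟨-, hc⟩ := cond_tt hc
  obtain ⟨e3, -⟩ := cond_tt hc
  exact tmk_lt e3 _

/-- **Tables with ties on the circle.** -/
theorem dat_false {D : Dat} {J Rm : List (List ℕ)} {nl : ℕ} {T : Tr} (hA : D.A ≤ 40)
    (hN : D.N ≤ 40) (hc : chkQ D J Rm nl T = true)
    {H : ℝ → (ℕ → ℕ) → Prop} (dense : ∀ u, ∃ᶠ v in 𝓝 u, ∃ h, H v h)
    (hrot : ∀ v h, H v h → H (v + 1) (rotN h))
    (leg : ∀ v h, H v h → Leg6 D.A D.nb D.op h)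
    {t : ℝ → ℕ → ℕ} (alw : ∀ u, Alw D (t u))
    (near : ∀ u, ∀ᶠ v in 𝓝 u, ∀ g, H v g → Blw D (t u) g)
    {Tie : ℕ → ℝ → Prop}
    (tie1 : ∀ c, c < D.r → ∀ u u', Tie c u → Tie c u' → ∃ n : ℤ, u' = u + n)
    (gen : ∀ v h, H v h → ∀ c, c < D.r → ¬ Tie c v)
    (bit : ∀ u c, c < D.r → (ties D (t u)).testBit c = true → Tie c u) : False := by
  obtain ⟨cmp, R, r0, r1, r2⟩ := box_table hA hN hc
  refine mark_false (κ := {c : ℕ // c < D.r}) dense hrot (Tie := fun c u => Tie c.1 u)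
    (fun c u u' h1 h2 => tie1 c.1 c.2 u u' h1 h2) (fun v h c hv => gen v h hv c.1 c.2)
    (B := fun u g => Blw D (t u) g ∧ Leg6 D.A D.nb D.op g) ?_
    (φ := fun h g S => ∃ s, s < 2 ^ D.r ∧ (∀ c : {c : ℕ // c < D.r}, s.testBit c.1 = true → c ∈ S) ∧
      Leg6 D.A D.nb D.op g ∧ R (cmp h) s (cmp g)) ?_ ?_ ?_ ?_
  · intro u
    filter_upwards [near u] with v hv g hg
    exact ⟨hv g hg, leg v g hg⟩
  · intro v h hv
    exact ⟨0, Nat.two_pow_pos _, fun c hc => absurd hc (by simp), leg v h hv, r0 h (leg v h hv)⟩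
  · rintro h g S S' hS ⟨s, h1, h2, h3, h4⟩
    exact ⟨s, h1, fun c hc => hS (h2 c hc), h3, h4⟩
  · rintro u g g' ⟨b1, l1⟩ ⟨b2, l2⟩ h S hS ⟨s, h1, h2, h3, h4⟩
    have hlt := ties_lt hc (t u)
    have hand : Nat.land s (ties D (t u)) = 0 := by
      refine Nat.eq_of_testBit_eq fun c => ?_
      rw [Nat.zero_testBit]
      change (s &&& ties D (t u)).testBit c = false
      rw [Nat.testBit_and]
      by_contra hcon
      rw [Bool.not_eq_false, Bool.and_eq_true] at hcon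
      have hcr : c < D.r := by
        by_contra hge
        have h5 := Nat.testBit_lt_two_pow (lt_of_lt_of_le h1 (Nat.pow_le_pow_right (by norm_num)
          (not_lt.1 hge)))
        rw [h5] at hcon
        exact absurd hcon.1 (by simp)
      exact hS ⟨c, hcr⟩ (h2 ⟨c, hcr⟩ hcon.1) (bit u c hcr hcon.2)
    refine ⟨Nat.lor s (ties D (t u)), Nat.or_lt_two_pow h1 hlt, ?_, l2,
      r1 (t u) g g' (cmp h) s (alw u) l1 l2 b1 b2 h1 hand h4⟩
    intro c hc
    have hc : (s ||| ties D (t u)).testBit c.1 = true := hc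
    rw [Nat.testBit_or, Bool.or_eq_true] at hc
    rcases hc with hc | hc
    · exact Or.inl (h2 c hc)
    · exact Or.inr (bit u c.1 c.2 hc)
  · rintro v h S hv ⟨s, h1, -, h3, h4⟩
    exact r2 h (rotN h) s (leg v h hv) h3 (fun k _ => rfl) h1 h4

end Vale.Agent.P032.Words6.H503
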