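import Vale.Agent.P032.Words6.H503.Mark
import Vale.Agent.P032.Words6.H46.Sel

/-!
# P032: a time with two classes, for the words of exact pairs
-/

open Set Filter Topology Metric

noncomputable section

namespace Vale.Agent.P032.Words6.H503

open Vale.Agent.P032.Six Vale.Agent.P032.S5.H767 Vale.Agent.P032.Words6.H704
  Vale.Agent.P032.Words6.H46

variable {U : Fin 6 → Set ℂ} {T : ℂ → Set (Fin 6)} {z : ℂ}

/-- the words of exact pairs at generic times -/
def HS (T : ℂ → Set (Fin 6)) (z : ℂ) (v : ℝ) (h : Fin 6 → Set (Fin 6)) : Prop :=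
  Gn T z v ∧ Sel T z v h

theorem hs_sel (C : Six6 U T z) : SelH T z (HS T z) where
  gn := fun v h hv => hv.1
  le := fun v h hv k => (hv.2 k).2
  two := fun v h hv k => pair_card (hv.2 k).1
  dense := by
    intro u
    have h1 : ∃ᶠ v in 𝓝 u, Gn T z v := mem_closure_iff_frequently.1 (C.gn_dense u)
    refine h1.mono fun v hv => ?_
    obtain ⟨a, ha⟩ := C.exists_sel v
    exact ⟨a, hv, ha⟩

theorem hs_rot {v : ℝ} {h : Fin 6 → Set (Fin 6)} (hv : HS T z v h) :
    HS T z (v + 1) (fun k => h (k + 1)) := by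
  refine ⟨hv.1.shift, fun k => ⟨(hv.2 (k + 1)).1, ?_⟩⟩
  have h1 := (hv.2 (k + 1)).2
  rw [pt_fin] at h1
  rw [show v + 1 + (k.val : ℝ) = v + (k.val : ℝ) + 1 by ring]
  exact h1

theorem hs_leg (C : Six6 U T z) {v : ℝ} {h : Fin 6 → Set (Fin 6)} (hv : HS T z v h) :
    LegM (MC T z) h := C.legM hv.1 hv.2

/-- **Two classes accumulate at one time**: any label of the words which the rotation changes is not
constant on the words accumulating at some time. -/
theorem exists_two (C : Six6 U T z) {L : Type*} (cls : (Fin 6 → Set (Fin 6)) → L)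
    (hrot : ∀ v h, HS T z v h → cls (fun k => h (k + 1)) ≠ cls h) :
    ∃ u h g, Acc (HS T z) u h ∧ Acc (HS T z) u g ∧ cls h ≠ cls g := by
  by_contra hcon
  push Not at hcon
  refine mark_false (κ := Empty) (H := HS T z) (rot := fun h k => h (k + 1)) (hs_sel C).dense
    (fun v h hv => hs_rot hv) (Tie := fun c _ => c.elim) (fun c => c.elim) (fun v h c => c.elim)
    (B := fun u h => Acc (HS T z) u h) (fun u => ?_) (φ := fun h g _ => cls h = cls g) ?_ ?_ ?_ ?_
  · exact (acc_near _ u).mono fun v hv g hg => hv g hg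
  · intro v h hv
    rfl
  · intro h g S S' hS he
    exact he
  · intro u g g' hg hg' h S hS he
    exact he.trans (hcon u g g' hg hg')
  · intro v h S hv he
    exact hrot v h hv he.symm

end Vale.Agent.P032.Words6.H503
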