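import Vale.Agent.P032.Words6.H790.FinF
import Vale.Agent.P032.Words6.H220.Md
import Vale.Agent.P032.Words6.H180.BlockPt
import Vale.Agent.P032.S5.H843.Core7
import Vale.Agent.P032.Words6.H529.Alt
import Vale.Agent.P032.Words6.H172.Modes
import Vale.Agent.P032.S5.H555.Cut
import Vale.Agent.P032.S5.H555.SilP
import Vale.Agent.P032.Words6.H46.Sel

/-!
# P032: every colour of a six-coloured centre is in an exact pair, from the finite facts
-/

open Set Filter Topology Metric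

noncomputable section

namespace Vale.Agent.P032.Words6.H503

open Vale.Agent.P032.Six Vale.Agent.P032.S5.H767 Vale.Agent.P032.Words6.H704
  Vale.Agent.P032.Words6.H46 Vale.Agent.P032.Words6.H790 Vale.Agent.P032.Words6.H172

variable {U : Fin 6 → Set ℂ} {T : ℂ → Set (Fin 6)} {z : ℂ} {x i : Fin 6}
  {cl : (Fin 6 → Set (Fin 6)) → ℕ}

theorem shift_freq {u a : ℝ} {P : ℝ → Prop} (h : ∃ᶠ v in 𝓝 u, P v) :
    ∃ᶠ v in 𝓝 (u + a), P (v - a) := by
  refine (tendsto_add u a).frequently ?_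
  exact h.mono fun v hv => by rwa [add_sub_cancel_right]

theorem shift_ev {u a : ℝ} {P : ℝ → Prop} (h : ∀ᶠ v in 𝓝 u, P v) :
    ∀ᶠ v in 𝓝 (u + a), P (v - a) := by
  have h1 : Tendsto (fun v : ℝ => v - a) (𝓝 (u + a)) (𝓝 u) := by
    have h2 : Continuous fun v : ℝ => v - a := by fun_prop
    have h3 := h2.tendsto (u + a)
    rwa [add_sub_cancel_right] at h3
  exact h1.eventually h

theorem sel_near {v : ℝ} {a : Fin 6 → Set (Fin 6)} (hg : Gn T z v) (ha : Sel T z v a) :
    ∀ᶠ v' in 𝓝 v, ∀ k : Fin 6, a k ⊆ T (pt z (v' + (k.val : ℝ))) := by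
  rw [eventually_all]
  intro k
  have h1 := (tendsto_add v (k.val : ℝ)).eventually (hg k)
  exact h1.mono fun v' hv' => by rw [hv']; exact (ha k).2

theorem blocked (C : Sl U T z x i) {p : ℂ} (hp : dist p z = 1) (hxp : x ∈ Pal U p) {u : ℝ}
    {h g : Fin 6 → Set (Fin 6)} (hh : ∃ᶠ v in 𝓝 u, Gn T z v ∧ Sel T z v h)
    (hg : ∃ᶠ v in 𝓝 u, Gn T z v ∧ Sel T z v g) (hx : ∀ k : Fin 6, x ∉ T (pt z (u + (k.val : ℝ))))
    {n : Fin 6} (hp1 : p ≠ pt z (u + (n.val : ℝ))) (hp2 : p ≠ pt z (u + ((n + 3).val : ℝ)))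
    (hb : BL x i (fun k => T (pt z (u + (k.val : ℝ)))) h g n) : False := by
  have hirr := C.six.irr
  have hpp : PP T z x u = fun k => T (pt z (u + (k.val : ℝ))) := by
    funext k
    exact Set.sdiff_singleton_eq_self (hx k)
  obtain ⟨r, s, c, d, hK, t1, t4, b1, b2, b3, b4, ⟨j, hj⟩, hw⟩ := hb
  have letter : ∀ {a : Fin 6 → Set (Fin 6)}, (∃ᶠ v in 𝓝 u, Gn T z v ∧ Sel T z v a) → ∀ k s,
      a k = s → ∃ q, dist q z = 1 ∧ T q = s := by
    intro a ha k s hs
    obtain ⟨v, -, hv⟩ := ha.exists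
    obtain ⟨⟨y, y', ⟨-, q, hq, hT⟩, e⟩, -⟩ := hv k
    exact ⟨q, hq, by rw [hT, ← e, hs]⟩
  obtain ⟨q, hq, hTq⟩ : ∃ q, dist q z = 1 ∧ T q = {c, d} := by
    rcases hj with hj | hj
    · exact letter hh j _ hj
    · exact letter hg j _ hj
  have hgen : ∀ᶠ v in 𝓝 u, Gn T z v → r ∈ T (pt z (v + (n.val : ℝ))) ∧
      s ∈ T (pt z (v + ((n + 3 : Fin 6).val : ℝ))) := by
    filter_upwards [C.near u] with v hv hgv
    obtain ⟨a, ha⟩ := C.six.exists_sel v
    have h1 := C.lg hgv ha hv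
    rw [hpp] at h1
    obtain ⟨w1, w2⟩ := hw a h1
    exact ⟨(ha n).2 w1, (ha _).2 w2⟩
  have hall : ∀ᶠ v in 𝓝 u, r ∈ T (pt z (v + (n.val : ℝ))) ∧
      s ∈ T (pt z (v + (n.val : ℝ) + 3)) := by
    filter_upwards [hgen.eventually_nhds] with v hv
    have hd : ∃ᶠ v' in 𝓝 v, Gn T z v' := mem_closure_iff_frequently.1 (C.six.gn_dense v)
    have h1 := hd.and_eventually hv
    refine ⟨mem_of_freq C.six (h1.mono fun v' h => (h.2 h.1).1), ?_⟩
    rw [← Mode.fin3]
    exact mem_of_freq C.six (h1.mono fun v' h => (h.2 h.1).2)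
  refine hirr.block_ptc (v0 := u + (n.val : ℝ)) (x := x) (o := i) (r := r) (s := s) (c := c)
    (d := d) (fun j => hirr.sub z (C.six.all j)) hp hxp hp1 (by rw [← Mode.fin3]; exact hp2) hK t1
    ?_ ?_ ?_ ?_ ?_ ?_
  · rw [← Mode.fin3]; exact t4
  · refine (shift_ev (a := (n.val : ℝ)) hall).mono fun v hv => ?_
    rw [sub_add_cancel] at hv
    exact hv.1
  · refine (shift_ev (a := (n.val : ℝ)) hall).mono fun v hv => ?_
    rw [sub_add_cancel] at hv
    exact hv.2
  · exact (hirr.no_layer hq).mono fun w hw h1 h2 => hw (by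
      rw [hTq]
      rintro j (rfl | hj)
      · exact h1
      · rw [Set.mem_singleton_iff.1 hj]; exact h2)
  · refine (shift_freq (a := (n.val : ℝ)) hh).mono fun v hv => ?_
    have h1 := shift_ev (a := (n.val : ℝ)) (sel_near hv.1 hv.2)
    rw [sub_add_cancel] at h1
    constructor
    · refine h1.mono fun v' hv' => ?_
      have k1 := hv' n
      rwa [sub_add_cancel, b1] at k1
    · refine h1.mono fun v' hv' => ?_
      have k1 := hv' (n + 3)
      rwa [Mode.fin3, sub_add_cancel, b2] at k1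
  · refine (shift_freq (a := (n.val : ℝ)) hg).mono fun v hv => ?_
    have h1 := shift_ev (a := (n.val : ℝ)) (sel_near hv.1 hv.2)
    rw [sub_add_cancel] at h1
    constructor
    · refine h1.mono fun v' hv' => ?_
      have k1 := hv' n
      rwa [sub_add_cancel, b3] at k1
    · refine h1.mono fun v' hv' => ?_
      have k1 := hv' (n + 3)
      rwa [Mode.fin3, sub_add_cancel, b4] at k1

/-- **No colour outside all letters**, from the finite facts. -/
theorem no_silent_of (hfin : FinF) (h : Irr U T) (hmin : Mn U T) (h6 : (T z).ncard = 6)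
    (hcl : ∀ y, dist y z = 1 → (T y).ncard ≤ 3) (x : Fin 6) :
    ∃ q, dist q z = 1 ∧ x ∈ T q ∧ (T q).ncard = 2 := by
  have hTz : T z = univ := Set.eq_of_subset_of_ncard_le (subset_univ _)
    (by rw [h6, Set.ncard_univ, Nat.card_eq_fintype_card, Fintype.card_fin]) (Set.toFinite _)
  have C : Six6 U T z := ⟨h, fun j => by rw [hTz]; exact mem_univ j, hcl⟩
  by_contra hno
  push Not at hno
  obtain ⟨p, hp, hxp, i, hi, hN⟩ := SilP.exists_NF C x
  have S : Sl U T z x i := ⟨C, fun a b hab => by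
    obtain ⟨hne, q, hq, hT⟩ := hab
    constructor
    · rintro rfl
      exact hno q hq (by rw [hT]; exact Or.inl rfl) (by rw [hT]; exact Set.ncard_pair hne)
    · rintro rfl
      exact hno q hq (by rw [hT]; exact Or.inr rfl) (by rw [hT]; exact Set.ncard_pair hne), hN⟩
  obtain ⟨f1, rt, f2⟩ := hfin x i hi
  obtain ⟨u, hu, hbx, a, g, hne, hh, hg, fh, fg, -, -⟩ := S.exists_box f1 rt
  have letter : ∀ {a : Fin 6 → Set (Fin 6)}, (∃ᶠ v in 𝓝 u, Gn T z v ∧ Sel T z v a) → ∀ k s,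
      a k = s → ∃ q, dist q z = 1 ∧ T q = s := by
    intro a ha k s hs
    obtain ⟨v, -, hv⟩ := ha.exists
    obtain ⟨⟨y, y', ⟨-, q, hq, hT⟩, e⟩, -⟩ := hv k
    exact ⟨q, hq, by rw [hT, ← e, hs]⟩
  rcases f2 _ a g hbx (fun k => (hu k).1) hh hg hne with
    ⟨A, B, hA, hB, hxA, hxB, hAB, hT⟩ | ⟨A, B, hAn, hBn, hA, hd, hxA, hxB, hun, hl⟩ |
    ⟨k, k', hk1, hk2, hb, hb'⟩
  · exact Vale.Agent.P032.Words6.H529.alt C hp hxp hxA hxB hN hA hB hAB hT
  · refine h.no_cut hmin (z := z) (x := x) (A := A) (B := B) (by omega) ?_ hxA hxB hd hAn hBn hA ?_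
    · rw [hTz]
      refine (Set.eq_univ_of_forall fun j => ?_).symm
      rcases hun j with h1 | h1 | h1
      · exact Or.inl h1
      · exact Or.inr (Or.inl h1)
      · exact Or.inr (Or.inr h1)
    · intro b hb c hc
      obtain ⟨k, hk | hk⟩ := hl b hb c hc
      · exact letter fh k _ hk
      · exact letter fg k _ hk
  · have key : ∀ n : Fin 6, (BL x i (fun k => T (pt z (u + (k.val : ℝ)))) a g n ∨
        BL x i (fun k => T (pt z (u + (k.val : ℝ)))) g a n) →
        p = pt z (u + (n.val : ℝ)) ∨ p = pt z (u + ((n + 3).val : ℝ)) := by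
      intro n hn
      by_contra hcon
      push Not at hcon
      rcases hn with hn | hn
      · exact blocked S hp hxp fh fg (fun k => (hu k).2) hcon.1 hcon.2 hn
      · exact blocked S hp hxp fg fh (fun k => (hu k).2) hcon.1 hcon.2 hn
    have hne : ∀ m m' : Fin 6, p = pt z (u + (m.val : ℝ)) → p = pt z (u + (m'.val : ℝ)) →
        m = m' := fun m m' h1 h2 => H220.pt_inj_fin (h1.symm.trans h2)
    rcases key k hb with h1 | h1 <;> rcases key k' hb' with h2 | h2
    · exact hk1 (hne _ _ h2 h1)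
    · have h3 := hne _ _ h1 h2
      apply hk2
      rw [h3, add_assoc]
      simp
    · exact hk2 (hne _ _ h2 h1)
    · have h3 := hne _ _ h1 h2
      exact hk1 (add_right_cancel h3).symm

end Vale.Agent.P032.Words6.H503
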